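import Vale.Agent.P068.Defs
import Vale.Agent.P068.Final

open Vale.Agent.P068

/-- Assume the continuum hypothesis. On the countable set `(Bool × ℕ) × (Bool × ℕ)` there is a
pair of matroids that does not satisfy intersection, and there is a family of two matroids that
has no packing/covering partition. -/
theorem Vale.Agent.Results.P068.Main.result
    (hCH : Cardinal.continuum.{0} = Cardinal.aleph 1) :
    (∃ M N : Matroid ((Bool × ℕ) × (Bool × ℕ)), M.E = Set.univ ∧ N.E = Set.univ ∧
      ¬ SatisfiesIntersection M N) ∧
    (∃ M : Bool → Matroid ((Bool × ℕ) × (Bool × ℕ)), (∀ b, (M b).E = Set.univ) ∧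
      ¬ HasPackingCovering Set.univ M) :=
  main_result hCH
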