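import Vale.Agent.P068.Defs
import Vale.Agent.P068R.Defs
import Vale.Agent.P068R.Final

open Vale.Agent.P068 Vale.Agent.P068R

/-- Assume the continuum hypothesis or, more generally, that the reaping number is the continuum.
On the countable set `(Bool × ℕ) × (Bool × ℕ)` there is a pair of matroids that does not satisfy
intersection, and there is a family of two matroids that has no packing/covering partition. -/
theorem Vale.Agent.Results.P068.Reap.result
    (h : Cardinal.continuum.{0} = Cardinal.aleph 1 ∨ ReapingEqContinuum) :
    (∃ M N : Matroid ((Bool × ℕ) × (Bool × ℕ)), M.E = Set.univ ∧ N.E = Set.univ ∧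
      ¬ SatisfiesIntersection M N) ∧
    (∃ M : Bool → Matroid ((Bool × ℕ) × (Bool × ℕ)), (∀ b, (M b).E = Set.univ) ∧
      ¬ HasPackingCovering Set.univ M) :=
  Vale.Agent.P068R.main_result (h.elim reaping_of_CH id)
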